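import Vale.Agent.P290.R2.H596.Spec2

/-! Interpolation with prescribed Jacobian determinants in all fibres near an Oka fibre, from
interpolation of bounded jets near a given tuple. -/

open Set Filter Metric
open scoped Topology NNReal ContDiff

namespace Vale.Agent.P290.R2.H489

open Vale.Agent.P290 Vale.Agent.P290.K Vale.Agent.P290.H580
open Vale.Agent.P290.H805 Vale.Agent.P290.R2.H596

/-- the linear map `(a, b) ↦ (d a, b)` -/
noncomputable def diagL (d : ℂ) : C2 →L[ℂ] C2 :=
  (d • ContinuousLinearMap.id ℂ ℂ).prodMap (ContinuousLinearMap.id ℂ ℂ)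

theorem diagL_det (d : ℂ) : (diagL d).det = d := by
  have h : ((diagL d : C2 →L[ℂ] C2) : C2 →ₗ[ℂ] C2) =
      (d • LinearMap.id : ℂ →ₗ[ℂ] ℂ).prodMap (LinearMap.id : ℂ →ₗ[ℂ] ℂ) := rfl
  rw [ContinuousLinearMap.det, h, LinearMap.det_prodMap, LinearMap.det_id, mul_one,
    LinearMap.det_smul, LinearMap.det_id, Module.finrank_self]
  simp

theorem diagL_norm (d : ℂ) : ‖diagL d‖ ≤ ‖d‖ + 1 := by
  refine ContinuousLinearMap.opNorm_le_bound _ (by positivity) fun x => ?_
  have h1 : diagL d x = (d * x.1, x.2) := rfl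
  rw [h1, Prod.norm_def]
  refine max_le ?_ ?_
  · change ‖d * x.1‖ ≤ _
    rw [norm_mul]
    have h2 := norm_fst_le x
    have h3 := norm_nonneg d
    have h4 := norm_nonneg x
    nlinarith
  · change ‖x.2‖ ≤ _
    have h2 := norm_snd_le x
    have h3 := norm_nonneg d
    have h4 := norm_nonneg x
    nlinarith

/-- J2: interpolation with prescribed determinants in all fibres near an Oka fibre -/
theorem fibresJet (hJ : StJac) (hN : StNearbyJet) : StFibresJet := by
  intro T E _ _ F hp vol hvol t₀ hT2 hconn hOka k z hz ρ Λ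
  have : T2Space (Fib F t₀) := hT2
  have : ConnectedSpace (Fib F t₀) := hconn
  have : CompactSpace (Fib F t₀) := by
    constructor
    rw [isInducing_val.isCompact_iff]
    have h1 : (Fib.val '' (univ : Set (Fib F t₀))) = F.p ⁻¹' {t₀} := by
      ext x
      constructor
      · rintro ⟨y, -, rfl⟩
        exact y.2
      · intro hx
        exact ⟨⟨x, hx⟩, mem_univ _, rfl⟩
    rw [h1]
    exact hp.isCompact_preimage isCompact_singleton
  have hpi : IsProperMap (fun (x : Fin (k + 1) → E) j => F.p (x j)) :=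
    IsProperMap.pi_map fun _ => hp
  have h2 := hpi.isClosedMap.eventually_nhds_fiber (fun _ => t₀)
    (p := fun x' : Fin (k + 1) → E => ∀ t, (∀ j, F.p (x' j) = t) → ∀ d : Fin (k + 1) → ℂ,
      (∀ j, ‖d j‖ ≤ Λ) → ∃ g : C2 → E, (∀ y ∈ closedBall (0 : C2) ρ, FH F t g y) ∧
        ∀ j, FH F t g (z j) ∧ g (z j) = x' j ∧ jac F vol t g (z j) = d j) ?_
  · have hdiag : Tendsto (fun t : T => fun _ : Fin (k + 1) => t) (𝓝 t₀) (𝓝 fun _ => t₀) := by
      have : Continuous (fun t : T => fun _ : Fin (k + 1) => t) := by fun_prop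
      exact this.tendsto t₀
    filter_upwards [hdiag.eventually h2] with t ht x hx
    exact ht x (funext hx) t hx
  intro x hx
  have hxj : ∀ j, F.p (x j) = t₀ := fun j => congrFun hx j
  -- the coefficient of the two-form at `x j`
  have ht : ∀ j, F.triv (x j) (x j) = (t₀, (F.triv (x j) (x j)).2) := fun j => by
    rw [← hxj j]; exact F.mk_eq _ (F.mem _)
  have hv := fun j => hvol (x j) t₀ (F.triv (x j) (x j)).2
    (by rw [← ht j]; exact (F.triv (x j)).map_source (F.mem _))
  set m : Fin (k + 1) → ℝ := fun j => ‖vol (x j) (F.triv (x j) (x j))‖ / 2 with hm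
  have hm0 : ∀ j, 0 < m j := fun j => by
    have h1 : vol (x j) (F.triv (x j) (x j)) ≠ 0 := by rw [ht j]; exact (hv j).2.2.1
    have := norm_pos_iff.2 h1
    simp only [hm]; linarith
  set Λ' : ℝ := 1 + ∑ j, |Λ| / m j with hΛ'
  have hev : ∀ j, ∀ᶠ x' in 𝓝 x, x' j ∈ (F.triv (x j)).source ∧
      m j ≤ ‖vol (x j) (F.triv (x j) (x' j))‖ := by
    intro j
    have hpr : Tendsto (fun x' : Fin (k + 1) → E => x' j) (𝓝 x) (𝓝 (x j)) :=
      (continuous_apply j).tendsto x
    have h1 : ∀ᶠ y in 𝓝 (x j), y ∈ (F.triv (x j)).source :=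
      (F.triv (x j)).open_source.mem_nhds (F.mem _)
    have h2 : Tendsto (fun y => ‖vol (x j) (F.triv (x j) y)‖) (𝓝 (x j))
        (𝓝 ‖vol (x j) (F.triv (x j) (x j))‖) := by
      have h3 : ContinuousAt (vol (x j)) (F.triv (x j) (x j)) := by
        rw [ht j]; exact (hv j).1
      exact (h3.tendsto.comp ((F.triv (x j)).continuousAt (F.mem _)).tendsto).norm
    have h3 : ∀ᶠ y in 𝓝 (x j), m j ≤ ‖vol (x j) (F.triv (x j) y)‖ := by
      refine h2.eventually (Ici_mem_nhds ?_)
      have := hm0 j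
      simp only [hm] at this ⊢
      linarith
    exact (hpr.eventually h1).and (hpr.eventually h3)
  filter_upwards [hN T E F t₀ hOka C2 k z hz ρ Λ' x hxj, eventually_all.2 hev] with x' h1 h4
  intro t hxt d hd
  set c : Fin (k + 1) → ℂ := fun j => vol (x j) (t, (F.triv (x j) (x' j)).2) with hc
  have hcm : ∀ j, m j ≤ ‖c j‖ := fun j => by
    have h5 : F.triv (x j) (x' j) = (t, (F.triv (x j) (x' j)).2) := by
      rw [← hxt j]; exact F.mk_eq _ (h4 j).1
    simp only [hc]
    rw [← h5]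
    exact (h4 j).2
  have hc0 : ∀ j, c j ≠ 0 := fun j => norm_pos_iff.1 ((hm0 j).trans_le (hcm j))
  obtain ⟨g, hg, hgj⟩ := h1 t hxt (fun j => diagL (d j / c j)) (fun j => by
    refine (diagL_norm _).trans ?_
    rw [norm_div]
    have h5 : ‖d j‖ / ‖c j‖ ≤ |Λ| / m j :=
      div_le_div₀ (abs_nonneg _) ((hd j).trans (le_abs_self _)) (hm0 j) (hcm j)
    have h6 : |Λ| / m j ≤ ∑ i, |Λ| / m i :=
      Finset.single_le_sum (f := fun i => |Λ| / m i)
        (fun i _ => div_nonneg (abs_nonneg _) (hm0 i).le) (Finset.mem_univ j)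
    linarith)
  refine ⟨g, hg, fun j => ⟨(hgj j).1, (hgj j).2.1, ?_⟩⟩
  rw [hJ T E F vol hvol t g (z j) (x j) (hgj j).1 (hgj j).2.2.1, (hgj j).2.2.2.fderiv, diagL_det,
    (hgj j).2.1]
  exact mul_div_cancel₀ _ (hc0 j)

end Vale.Agent.P290.R2.H489
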