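import Vale.Agent.P290.R2.H596.Spec2
import Mathlib.RingTheory.Complex
import Mathlib.MeasureTheory.Function.Jacobian

/-! The ratio of the two-forms is bounded below: comparison of volumes. -/

open Set Filter Metric MeasureTheory
open scoped Topology NNReal ContDiff

namespace Vale.Agent.P290.R2.H489

open Vale.Agent.P290 Vale.Agent.P290.K Vale.Agent.P290.H580
open Vale.Agent.P290.H805 Vale.Agent.P290.R2.H596

theorem det_real (A : C2 →L[ℂ] C2) : |(A.restrictScalars ℝ).det| = ‖A.det‖ ^ 2 := by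
  have h1 : (A.restrictScalars ℝ).det = Algebra.norm ℝ A.det := by
    rw [ContinuousLinearMap.det, ContinuousLinearMap.det]
    exact LinearMap.det_restrictScalars
  rw [h1, Algebra.norm_complex_eq]
  change |Complex.normSq A.det| = _
  rw [Complex.normSq_eq_norm_sq, abs_of_nonneg (by positivity)]

theorem meas_le {S : Set C2} (hS : IsOpen S) {f : C2 → C2} {A : C2} (hSA : S ⊆ ball A 1)
    (hd : ∀ w ∈ S, DifferentiableAt ℂ f w) {κ : ℝ}
    (hdet : ∀ w ∈ S, ‖(fderiv ℂ f w).det‖ ≤ κ) :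
    volume (f '' S) ≤ ENNReal.ofReal (κ ^ 2) * volume (ball A 1) := by
  have : (volume : Measure C2).IsAddHaarMeasure := Measure.prod.instIsAddHaarMeasure _ _
  refine (addHaar_image_le_lintegral_abs_det_fderiv volume hS.measurableSet
    (f' := fun w => (fderiv ℂ f w).restrictScalars ℝ)
    (fun w hw => ((hd w hw).hasFDerivAt.restrictScalars ℝ).hasFDerivWithinAt)).trans ?_
  calc ∫⁻ w in S, ENNReal.ofReal |((fderiv ℂ f w).restrictScalars ℝ).det|
      ≤ ∫⁻ _ in S, ENNReal.ofReal (κ ^ 2) := by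
        refine setLIntegral_mono' hS.measurableSet fun w hw => ENNReal.ofReal_le_ofReal ?_
        rw [det_real]
        have := hdet w hw
        gcongr
    _ = ENNReal.ofReal (κ ^ 2) * volume S := setLIntegral_const _ _
    _ ≤ _ := by gcongr

open Classical in
/-- the point of the fibre over `t` with the coordinate `w` in the trivialisation at `x` -/
noncomputable def pt {T E : Type} [TopologicalSpace T] [TopologicalSpace E] (F : Family T E)
    (t : T) (y₀ : Fib F t) (x : E) (w : C2) : Fib F t :=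
  if h : (t, w) ∈ (F.triv x).target then ⟨(F.triv x).symm (t, w), F.p_symm x h⟩ else y₀

section
variable {T E : Type} [TopologicalSpace T] [TopologicalSpace E] {F : Family T E} {t : T}

theorem pt_val (y₀ : Fib F t) {x : E} {w : C2} (h : (t, w) ∈ (F.triv x).target) :
    (pt F t y₀ x w).1 = (F.triv x).symm (t, w) := by
  rw [pt, dif_pos h]

theorem pt_ev {x : E} {w : C2} (h : (t, w) ∈ (F.triv x).target) :
    ∀ᶠ u in 𝓝 w, (t, u) ∈ (F.triv x).target :=
  (Continuous.prodMk_right t).continuousAt.eventually ((F.triv x).open_target.mem_nhds h)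

theorem pt_FH (y₀ : Fib F t) {x : E} {w : C2} (h : (t, w) ∈ (F.triv x).target) :
    FH F t (fun u => (pt F t y₀ x u).1) w := by
  refine (FH.mk_symm (v := fun u : C2 => u) differentiableAt_id h).congr ?_
  filter_upwards [pt_ev h] with u hu
  exact pt_val y₀ hu

theorem pt_cont (y₀ : Fib F t) {x : E} {w : C2} (h : (t, w) ∈ (F.triv x).target) :
    ContinuousAt (pt F t y₀ x) w :=
  isInducing_val.continuousAt_iff.2 (pt_FH y₀ h).2.1

/-- the determinant of a holomorphic map to a K3 surface, in arbitrary charts -/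
theorem det_formula (hJ : StJac) (hC : StComp) {vol : E → T × C2 → ℂ} (hvol : RelForm F vol)
    (X : All.K3) (b : Fib F t → X.X) (hb : ∀ y, All.Hol b y) (lam : ℂ)
    (hlam : ∀ y, Ratio F vol t X b y lam) (y₀ : Fib F t) {e : OpenPartialHomeomorph X.X C2}
    (he : e ∈ atlas C2 X.X) {x : E} {w : C2} (h : (t, w) ∈ (F.triv x).target)
    (hbe : b (pt F t y₀ x w) ∈ e.source) :
    DifferentiableAt ℂ (fun u => e (b (pt F t y₀ x u))) w ∧
      X.vol e (e (b (pt F t y₀ x w))) * (fderiv ℂ (fun u => e (b (pt F t y₀ x u))) w).det =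
        lam * vol x (t, w) := by
  obtain ⟨hhol, hdet⟩ := hC T E F vol hvol t X b hb lam hlam (pt F t y₀ x) w (pt_FH y₀ h)
  -- the determinant of the family
  have hsrc : (pt F t y₀ x w).1 ∈ (F.triv x).source := by
    rw [pt_val y₀ h]; exact (F.triv x).map_target h
  have hid : (fun u => (F.triv x (pt F t y₀ x u).1).2) =ᶠ[𝓝 w] fun u => u := by
    filter_upwards [pt_ev h] with u hu
    rw [pt_val y₀ hu, (F.triv x).right_inv hu]
  have hjac : jac F vol t (fun u => (pt F t y₀ x u).1) w = vol x (t, w) := by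
    have hw0 : (F.triv x (pt F t y₀ x w).1).2 = w := hid.self_of_nhds
    rw [hJ T E F vol hvol t _ w x (pt_FH y₀ h) hsrc, hid.fderiv_eq, hw0, fderiv_fun_id]
    change _ * LinearMap.det (LinearMap.id : C2 →ₗ[ℂ] C2) = _
    rw [LinearMap.det_id, mul_one]
  rw [hjac] at hdet
  -- change of charts in the K3 surface
  set q := b (pt F t y₀ x w) with hq
  set e' := chartAt C2 q with he'
  have hqe' : q ∈ e'.source := mem_chart_source C2 q
  have h1 := (X.holo e' (chart_mem_atlas C2 q)).2 (e' q) (e'.map_source hqe')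
  have h2 := h1.2 e he (by rw [e'.left_inv hqe']; exact hbe)
  rw [e'.left_inv hqe'] at h2
  set A := fderiv ℂ (fun z => e (e'.symm z)) (e' q) with hA
  have hAd : DifferentiableAt ℂ (fun z => e (e'.symm z)) (e' q) := by
    by_contra hcon
    have h3 : A = 0 := fderiv_zero_of_not_differentiableAt hcon
    apply h1.1
    rw [h2, h3]
    have h4 : ((0 : C2 →L[ℂ] C2)).det = 0 := by
      change LinearMap.det (0 : C2 →ₗ[ℂ] C2) = 0
      rw [LinearMap.det_zero, zero_pow Module.finrank_pos.ne']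
    rw [h4, mul_zero]
  have hB : DifferentiableAt ℂ (fun u => e' (b (pt F t y₀ x u))) w := hhol.2
  have hcomp : DifferentiableAt ℂ (fun u => e (e'.symm (e' (b (pt F t y₀ x u))))) w :=
    DifferentiableAt.comp (g := fun z => e (e'.symm z)) (f := fun u => e' (b (pt F t y₀ x u))) w
      hAd hB
  have hev : (fun u => e (b (pt F t y₀ x u))) =ᶠ[𝓝 w]
      fun u => e (e'.symm (e' (b (pt F t y₀ x u)))) := by
    have hc : ContinuousAt (fun u => b (pt F t y₀ x u)) w := hhol.1
    filter_upwards [hc.eventually (e'.open_source.mem_nhds hqe')] with u hu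
    rw [e'.left_inv hu]
  refine ⟨hcomp.congr_of_eventuallyEq hev, ?_⟩
  have hfd : fderiv ℂ (fun u => e (b (pt F t y₀ x u))) w =
      A.comp (fderiv ℂ (fun u => e' (b (pt F t y₀ x u))) w) := by
    rw [hev.fderiv_eq]
    exact fderiv_comp (g := fun z => e (e'.symm z)) (f := fun u => e' (b (pt F t y₀ x u))) w
      hAd hB
  rw [hfd]
  have hmul : (A.comp (fderiv ℂ (fun u => e' (b (pt F t y₀ x u))) w)).det =
      A.det * (fderiv ℂ (fun u => e' (b (pt F t y₀ x u))) w).det := by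
    change LinearMap.det ((A : C2 →ₗ[ℂ] C2).comp _) = _
    rw [LinearMap.det_comp]
  rw [hmul, ← mul_assoc, ← h2]
  exact hdet

end

/-- the pieces of the volume comparison -/
theorem piece {T E : Type} [TopologicalSpace T] [TopologicalSpace E] {F : Family T E} {t : T}
    (hJ : StJac) (hC : StComp) {vol : E → T × C2 → ℂ} (hvol : RelForm F vol)
    (X : All.K3) (b : Fib F t → X.X) (hb : ∀ y, All.Hol b y) (lam : ℂ)
    (hlam : ∀ y, Ratio F vol t X b y lam) (y₀ : Fib F t) {e : OpenPartialHomeomorph X.X C2}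
    (he : e ∈ atlas C2 X.X) {q : C2} {r m M : ℝ} (hm : 0 < m)
    (hmle : ∀ w ∈ ball q r, m ≤ ‖X.vol e w‖) {x : E} {A : C2} {W : Set (T × C2)} (hW : IsOpen W)
    (hWT : W ⊆ (F.triv x).target) (hWM : ∀ p ∈ W, ‖vol x p‖ ≤ M) (hWA : ∀ p ∈ W, p.2 ∈ ball A 1) :
    volume ((fun u => e (b (pt F t y₀ x u))) '' {w | (t, w) ∈ W ∧ b (pt F t y₀ x w) ∈ e.source ∧
      e (b (pt F t y₀ x w)) ∈ ball q r}) ≤
      ENNReal.ofReal ((‖lam‖ * M / m) ^ 2) * volume (ball A 1) := by
  have hbc : ∀ w, (t, w) ∈ W → ContinuousAt (fun u => b (pt F t y₀ x u)) w :=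
    fun w hw => ContinuousAt.comp (g := b) (f := pt F t y₀ x) (hb _).1 (pt_cont y₀ (hWT hw))
  refine meas_le ?_ (fun w hw => hWA _ hw.1)
    (fun w hw => (det_formula hJ hC hvol X b hb lam hlam y₀ he (hWT hw.1) hw.2.1).1)
    (fun w hw => ?_)
  · rw [isOpen_iff_mem_nhds]
    rintro w ⟨h1, h2, h3⟩
    have h4 : ∀ᶠ u in 𝓝 w, (t, u) ∈ W :=
      (Continuous.prodMk_right t).continuousAt.eventually (hW.mem_nhds h1)
    have h5 := (hbc w h1).eventually (e.open_source.mem_nhds h2)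
    have h6 : ContinuousAt (fun u => e (b (pt F t y₀ x u))) w :=
      ContinuousAt.comp (g := e) (f := fun u => b (pt F t y₀ x u)) (e.continuousAt h2) (hbc w h1)
    filter_upwards [h4, h5, h6.eventually (isOpen_ball.mem_nhds h3)] with u g1 g2 g3
    exact ⟨g1, g2, g3⟩
  · have h1 := (det_formula hJ hC hvol X b hb lam hlam y₀ he (hWT hw.1) hw.2.1).2
    have h2 := congrArg norm h1
    rw [norm_mul, norm_mul] at h2
    have h3 := hmle _ hw.2.2
    have h4 := hWM _ hw.1
    have h5 := norm_nonneg (fderiv ℂ (fun u => e (b (pt F t y₀ x u))) w).det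
    rw [le_div_iff₀ hm]
    calc ‖(fderiv ℂ (fun u => e (b (pt F t y₀ x u))) w).det‖ * m
        ≤ ‖(fderiv ℂ (fun u => e (b (pt F t y₀ x u))) w).det‖ *
          ‖X.vol e (e (b (pt F t y₀ x w)))‖ := mul_le_mul_of_nonneg_left h3 h5
      _ = ‖lam‖ * ‖vol x (t, w)‖ := by rw [mul_comm, h2]
      _ ≤ ‖lam‖ * M := mul_le_mul_of_nonneg_left h4 (norm_nonneg _)

/-- the chart of `X` -/
theorem exists_chart (X : All.K3) : ∃ e ∈ atlas C2 X.X, ∃ (p₀ : X.X) (q : C2) (r m : ℝ), 0 < r ∧
    0 < m ∧ ball q r ⊆ e.target ∧ (∀ w ∈ ball q r, m ≤ ‖X.vol e w‖) ∧ p₀ ∈ e.source := by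
  have hsc := X.sc
  obtain ⟨p₀⟩ : Nonempty X.X := inferInstance
  have hea : chartAt C2 p₀ ∈ atlas C2 X.X := chart_mem_atlas C2 p₀
  have hq₀ : chartAt C2 p₀ p₀ ∈ (chartAt C2 p₀).target :=
    (chartAt C2 p₀).map_source (mem_chart_source C2 p₀)
  obtain ⟨r₀, hr₀, hball⟩ := Metric.nhds_basis_closedBall.mem_iff.1
    ((chartAt C2 p₀).open_target.mem_nhds hq₀)
  obtain ⟨q₁, hq₁, hmin⟩ := (isCompact_closedBall (chartAt C2 p₀ p₀) r₀).exists_isMinOn
    ⟨chartAt C2 p₀ p₀, mem_closedBall_self hr₀.le⟩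
    ((X.holo _ hea).1.continuousOn.mono hball).norm
  exact ⟨chartAt C2 p₀, hea, p₀, chartAt C2 p₀ p₀, r₀, ‖X.vol (chartAt C2 p₀) q₁‖, hr₀,
    norm_pos_iff.2 ((X.holo _ hea).2 q₁ (hball hq₁)).1, ball_subset_closedBall.trans hball,
    fun w hw => hmin (ball_subset_closedBall hw), mem_chart_source C2 p₀⟩

/-- the neighbourhoods in the family -/
theorem exists_cover {T E : Type} [TopologicalSpace T] [TopologicalSpace E] {F : Family T E}
    (hp : IsProperMap F.p) {vol : E → T × C2 → ℂ} (hvol : RelForm F vol) (t₀ : T) :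
    ∃ (s : Finset E) (A : E → C2) (M : E → ℝ) (W : E → Set (T × C2)), (∀ x, IsOpen (W x)) ∧
      (∀ x, W x ⊆ (F.triv x).target) ∧ (∀ x, ∀ p ∈ W x, ‖vol x p‖ ≤ M x) ∧
      (∀ x, ∀ p ∈ W x, p.2 ∈ ball (A x) 1) ∧
      ∀ᶠ t in 𝓝 t₀, ∀ y ∈ F.p ⁻¹' {t}, ∃ x ∈ s, y ∈ (F.triv x).source ∧ F.triv x y ∈ W x := by
  set a : E → C2 := fun x => (F.triv x x).2 with ha
  set M : E → ℝ := fun x => ‖vol x (t₀, a x)‖ + 1 with hM
  set W : E → Set (T × C2) := fun x =>
    {q | q ∈ (F.triv x).target ∧ ‖vol x q‖ ≤ M x ∧ q.2 ∈ ball (a x) 1} with hW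
  have ht : ∀ x, F.p x = t₀ → F.triv x x = (t₀, a x) := fun x hx => by
    rw [← hx]; exact F.mk_eq _ (F.mem _)
  have hWn : ∀ x, F.p x = t₀ → W x ∈ 𝓝 (t₀, a x) := by
    intro x hx
    have h1 : (t₀, a x) ∈ (F.triv x).target := by
      rw [← ht x hx]; exact (F.triv x).map_source (F.mem _)
    have h2 := (hvol x t₀ (a x) h1).1
    refine Filter.inter_mem ((F.triv x).open_target.mem_nhds h1) (Filter.inter_mem ?_ ?_)
    · refine h2.norm.eventually (Iic_mem_nhds ?_)
      simp only [hM]; linarith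
    · exact continuous_snd.continuousAt.eventually (ball_mem_nhds _ one_pos)
  set U : E → Set E := fun x => (F.triv x).source ∩ (F.triv x) ⁻¹' (interior (W x)) with hU
  have hUo : ∀ x, IsOpen (U x) := fun x => (F.triv x).isOpen_inter_preimage isOpen_interior
  have hUx : ∀ x, F.p x = t₀ → x ∈ U x := fun x hx =>
    ⟨F.mem x, by
      change F.triv x x ∈ interior (W x)
      rw [ht x hx]
      exact mem_interior_iff_mem_nhds.2 (hWn x hx)⟩
  obtain ⟨s, hs, hcov⟩ := (hp.isCompact_preimage (isCompact_singleton (x := t₀))).elim_nhds_subcover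
    U (fun x hx => (hUo x).mem_nhds (hUx x hx))
  have hev := hp.isClosedMap.eventually_nhds_fiber t₀ (p := fun y => ∃ x ∈ s, y ∈ U x)
    (fun y hy => by
      obtain ⟨x, hx, hyx⟩ := mem_iUnion₂.1 (hcov hy)
      filter_upwards [(hUo x).mem_nhds hyx] with y' hy' using ⟨x, hx, hy'⟩)
  exact ⟨s, a, M, fun x => interior (W x), fun x => isOpen_interior,
    fun x p hp => (interior_subset hp).1, fun x p hp => (interior_subset hp).2.1,
    fun x p hp => (interior_subset hp).2.2, hev⟩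

/-- the numerical part -/
theorem num {E : Type} (s : Finset E) (A : E → C2) (M : E → ℝ) {q : C2} {r m lam : ℝ}
    (h : volume (ball q r) ≤
      ∑ x ∈ s, ENNReal.ofReal ((lam * M x / m) ^ 2) * volume (ball (A x) 1)) (hl : 0 ≤ lam) :
    √((volume (ball q r)).toReal /
      (∑ x ∈ s, (M x / m) ^ 2 * (volume (ball (A x) 1)).toReal + 1)) ≤ lam := by
  have hC0 : 0 ≤ ∑ x ∈ s, (M x / m) ^ 2 * (volume (ball (A x) 1)).toReal :=
    Finset.sum_nonneg fun x _ => mul_nonneg (sq_nonneg _) ENNReal.toReal_nonneg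
  have hreal : (volume (ball q r)).toReal ≤
      lam ^ 2 * ∑ x ∈ s, (M x / m) ^ 2 * (volume (ball (A x) 1)).toReal := by
    have h1 := ENNReal.toReal_mono (ENNReal.sum_ne_top.2 fun x _ =>
      ENNReal.mul_ne_top ENNReal.ofReal_ne_top measure_ball_lt_top.ne) h
    rw [ENNReal.toReal_sum (fun x _ =>
      ENNReal.mul_ne_top ENNReal.ofReal_ne_top measure_ball_lt_top.ne)] at h1
    refine h1.trans_eq ?_
    rw [Finset.mul_sum]
    refine Finset.sum_congr rfl fun x _ => ?_
    rw [ENNReal.toReal_mul, ENNReal.toReal_ofReal (sq_nonneg _)]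
    ring
  refine Real.sqrt_le_iff.2 ⟨hl, ?_⟩
  rw [div_le_iff₀ (by linarith)]
  have := sq_nonneg lam
  linarith

/-- J4: the ratio is bounded below -/
theorem lower (hJ : StJac) (hC : StComp) : StLower := by
  intro T E _ _ F hp vol hvol t₀ X
  have hAH : (volume : Measure C2).IsAddHaarMeasure := Measure.prod.instIsAddHaarMeasure _ _
  obtain ⟨e, hea, p₀, q, r, m, hr, hm, hball, hmle, hp₀⟩ := exists_chart X
  obtain ⟨s, A, M, W, hWo, hWT, hWM, hWA, hev⟩ := exists_cover hp hvol t₀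
  have hv₀ : 0 < (volume (ball q r)).toReal :=
    ENNReal.toReal_pos (measure_ball_pos volume _ hr).ne' measure_ball_lt_top.ne
  have hC0 : 0 ≤ ∑ x ∈ s, (M x / m) ^ 2 * (volume (ball (A x) 1)).toReal :=
    Finset.sum_nonneg fun x _ => mul_nonneg (sq_nonneg _) ENNReal.toReal_nonneg
  refine ⟨√((volume (ball q r)).toReal /
      (∑ x ∈ s, (M x / m) ^ 2 * (volume (ball (A x) 1)).toReal + 1)),
    Real.sqrt_pos.2 (div_pos hv₀ (by linarith)), ?_⟩
  filter_upwards [hev] with t htU b hb hsurj lam hlam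
  obtain ⟨y₀, -⟩ := hsurj p₀
  refine num s A M ?_ (norm_nonneg _)
  have hcover : ball q r ⊆ ⋃ x ∈ s, (fun u => e (b (pt F t y₀ x u))) ''
      {w | (t, w) ∈ W x ∧ b (pt F t y₀ x w) ∈ e.source ∧ e (b (pt F t y₀ x w)) ∈ ball q r} := by
    intro z hz
    have hzt : z ∈ e.target := hball hz
    obtain ⟨y, hy⟩ := hsurj (e.symm z)
    obtain ⟨x, hx, hyx, hyW⟩ := htU y.1 y.2
    have h1 : F.triv x y.1 = (t, (F.triv x y.1).2) := by
      have := F.mk_eq x hyx
      rwa [y.2] at this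
    have h2 : (t, (F.triv x y.1).2) ∈ W x := by
      rw [← h1]; exact hyW
    have h3 : pt F t y₀ x (F.triv x y.1).2 = y := by
      apply Fib.ext
      rw [pt_val y₀ (hWT x h2), ← h1, (F.triv x).left_inv hyx]
    have h4 : e (b (pt F t y₀ x (F.triv x y.1).2)) = z := by
      rw [h3, hy, e.right_inv hzt]
    refine mem_iUnion₂.2 ⟨x, hx, ⟨(F.triv x y.1).2, ⟨h2, ?_, ?_⟩, h4⟩⟩
    · rw [h3, hy]; exact e.map_target hzt
    · rw [h4]; exact hz
  exact (measure_mono hcover).trans ((measure_biUnion_finset_le _ _).trans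
      (Finset.sum_le_sum fun x _ =>
        piece hJ hC hvol X b hb lam hlam y₀ hea hm hmle (hWo x) (hWT x) (hWM x) (hWA x)))

end Vale.Agent.P290.R2.H489
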